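import Vale.Agent.P243.Main

open Vale.Agent.P243

theorem Vale.Agent.Results.P243.Disproof.result :
    ∃ K : Set E3, IsConvexBody K ∧
      ∃ (m : ℕ) (u : Fin m → E3) (B : (i : Fin m) → Set (perp (u i))),
        (∀ i, IsBase (u i) (B i)) ∧ K ⊆ ⋃ i, cylinder (u i) (B i) ∧
        ∑ i, area (u i) (B i) < minProjArea K / 2 ∧
        ∑ i, area (u i) (B i) / projArea K (u i) < 1 / 2 := by
  obtain ⟨K, h1, h2, h3, m, u, B, h4, h5, h6, h7, h8, h9⟩ := Vale.Agent.P243.main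
  exact ⟨K, ⟨h1, h2, h3⟩, m, u, B, fun i => ⟨h4 i, h5 i, h6 i⟩, h7, h8, h9⟩
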